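import Mathlib

open MeasureTheory

namespace Vale.Agent.Results.P223.A_ProductStability

/-- Pointwise inequality: the negative part of a sum dominates the weighted product of the
negative parts, with the sharp constant `(p+q)^(p+q) / (p^p q^q)`. -/
theorem pointwise_neg_part (a b p q : ℝ) (hp : 0 < p) (hq : 0 < q) :
    ((p + q) ^ (p + q) / (p ^ p * q ^ q)) * ((max (-a) 0) ^ p * (max (-b) 0) ^ q)
      ≤ (max (-(a + b)) 0) ^ (p + q) := by
  have hpq : 0 < p + q := by linarith
  by_cases ha : 0 ≤ a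
  · have h0 : max (-a) 0 = 0 := max_eq_right (by linarith)
    rw [h0, Real.zero_rpow hp.ne']
    simp only [zero_mul, mul_zero]
    exact Real.rpow_nonneg (le_max_right _ _) _
  by_cases hb : 0 ≤ b
  · have h0 : max (-b) 0 = 0 := max_eq_right (by linarith)
    rw [h0, Real.zero_rpow hq.ne']
    simp only [mul_zero]
    exact Real.rpow_nonneg (le_max_right _ _) _
  rw [not_le] at ha hb
  have hs : 0 < -a := by linarith
  have ht : 0 < -b := by linarith
  rw [max_eq_left hs.le, max_eq_left ht.le, max_eq_left (by linarith : (0:ℝ) ≤ -(a + b))]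
  set s := -a with hs_def
  set t := -b with ht_def
  have hst : -(a + b) = s + t := by rw [hs_def, ht_def]; ring
  rw [hst]
  -- weighted AM-GM
  have hw : p / (p + q) + q / (p + q) = 1 := by field_simp
  have key := Real.geom_mean_le_arith_mean2_weighted (w₁ := p / (p + q)) (w₂ := q / (p + q))
    (p₁ := s / p) (p₂ := t / q) (by positivity) (by positivity) (by positivity) (by positivity) hw
  have hrhs : p / (p + q) * (s / p) + q / (p + q) * (t / q) = (s + t) / (p + q) := by
    field_simp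
  rw [hrhs] at key
  have hlhs_nonneg : 0 ≤ (s / p) ^ (p / (p + q)) * (t / q) ^ (q / (p + q)) := by positivity
  have key2 := Real.rpow_le_rpow hlhs_nonneg key hpq.le
  rw [Real.mul_rpow (by positivity) (by positivity), ← Real.rpow_mul (by positivity),
    ← Real.rpow_mul (by positivity)] at key2
  have e1 : p / (p + q) * (p + q) = p := by field_simp
  have e2 : q / (p + q) * (p + q) = q := by field_simp
  rw [e1, e2, Real.div_rpow hs.le hp.le, Real.div_rpow ht.le hq.le,
    Real.div_rpow (by positivity) hpq.le] at key2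
  have hpp : 0 < p ^ p := Real.rpow_pos_of_pos hp p
  have hqq : 0 < q ^ q := Real.rpow_pos_of_pos hq q
  have hpqpq : 0 < (p + q) ^ (p + q) := Real.rpow_pos_of_pos hpq _
  have hsp : 0 ≤ s ^ p := Real.rpow_nonneg hs.le p
  have htq : 0 ≤ t ^ q := Real.rpow_nonneg ht.le q
  rw [div_mul_div_comm, div_le_div_iff₀ (by positivity) hpqpq] at key2
  rw [div_mul_eq_mul_div, div_le_iff₀ (by positivity)]
  linarith

/-- **Product stability of the integral scalar-curvature functional.**
For sigma-finite measure spaces `(X, μ)`, `(Y, ν)`, measurable `s₁ : X → ℝ`, `s₂ : Y → ℝ` and real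
exponents `p, q > 0`:
`∫∫ ((s₁ x + s₂ y)⁻)^(p+q) ≥ (p+q)^(p+q)/(p^p q^q) · ∫ (s₁⁻)^p · ∫ (s₂⁻)^q`,
where `t⁻ = max (-t) 0`. -/
theorem result {X Y : Type*} [MeasurableSpace X] [MeasurableSpace Y]
    (μ : Measure X) (ν : Measure Y) [SFinite μ] [SFinite ν]
    (s₁ : X → ℝ) (s₂ : Y → ℝ) (hs₁ : Measurable s₁) (hs₂ : Measurable s₂)
    (p q : ℝ) (hp : 0 < p) (hq : 0 < q) :
    ENNReal.ofReal ((p + q) ^ (p + q) / (p ^ p * q ^ q)) *
        ((∫⁻ x, ENNReal.ofReal ((max (-(s₁ x)) 0) ^ p) ∂μ) *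
          (∫⁻ y, ENNReal.ofReal ((max (-(s₂ y)) 0) ^ q) ∂ν))
      ≤ ∫⁻ z, ENNReal.ofReal ((max (-(s₁ z.1 + s₂ z.2)) 0) ^ (p + q)) ∂(μ.prod ν) := by
  have hf : Measurable fun x => ENNReal.ofReal ((max (-(s₁ x)) 0) ^ p) := by fun_prop
  have hg : Measurable fun y => ENNReal.ofReal ((max (-(s₂ y)) 0) ^ q) := by fun_prop
  rw [← lintegral_prod_mul hf.aemeasurable hg.aemeasurable, ← lintegral_const_mul' _ _ ENNReal.ofReal_ne_top]
  apply lintegral_mono
  intro z
  dsimp only
  have hC : 0 ≤ (p + q) ^ (p + q) / (p ^ p * q ^ q) := by positivity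
  have h1 : 0 ≤ (max (-(s₁ z.1)) 0) ^ p := Real.rpow_nonneg (le_max_right _ _) _
  have h2 : 0 ≤ (max (-(s₂ z.2)) 0) ^ q := Real.rpow_nonneg (le_max_right _ _) _
  rw [← ENNReal.ofReal_mul h1, ← ENNReal.ofReal_mul hC]
  exact ENNReal.ofReal_le_ofReal (pointwise_neg_part _ _ p q hp hq)

end Vale.Agent.Results.P223.A_ProductStability
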