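import Mathlib

open MeasureTheory

namespace Vale.Agent.Results.P223.B_ConformalClass

/-- **The integral scalar-curvature functional on a conformal class.**

`(X, μ)` is a finite measure space, `n > 2` is real, `u > 0`, `S₀` and `Lu` are real functions on
`X` with `∫ Lu / u dμ ≥ 0`.  Put
`s = u^(-(n+2)/(n-2)) * (-(4(n-1)/(n-2)) * Lu + S₀ * u)`.  Then
`(-∫ S₀ dμ)₊^(n/2) ≤ μ(X)^((n-2)/2) * ∫ (s⁻)^(n/2) * u^(2n/(n-2)) dμ`,
where `t⁻ = max (-t) 0`. -/
theorem result {X : Type*} [MeasurableSpace X] (μ : Measure X) [IsFiniteMeasure μ]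
    (n : ℝ) (hn : 2 < n) (u S₀ Lu : X → ℝ)
    (hu : ∀ x, 0 < u x) (hum : Measurable u) (hSm : Measurable S₀) (hLm : Measurable Lu)
    (hS : Integrable S₀ μ) (hL : Integrable (fun x => Lu x / u x) μ)
    (hibp : 0 ≤ ∫ x, Lu x / u x ∂μ) :
    ENNReal.ofReal (-∫ x, S₀ x ∂μ) ^ (n / 2)
      ≤ μ Set.univ ^ ((n - 2) / 2) *
        ∫⁻ x, ENNReal.ofReal
          ((max (-(u x ^ (-(n + 2) / (n - 2)) *
            (-(4 * (n - 1) / (n - 2)) * Lu x + S₀ x * u x))) 0) ^ (n / 2)
            * u x ^ (2 * n / (n - 2))) ∂μ := by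
  have hn2 : 0 < n - 2 := by linarith
  set c : ℝ := 4 * (n - 1) / (n - 2) with hc
  have hc0 : 0 ≤ c := by
    rw [hc]
    have : 0 < n - 1 := by linarith
    positivity
  set s : X → ℝ := fun x => u x ^ (-(n + 2) / (n - 2)) * (-c * Lu x + S₀ x * u x) with hs
  set φ : X → ℝ := fun x => max (-(s x)) 0 * u x ^ (4 / (n - 2)) with hφ
  have hsm : Measurable s := by
    rw [hs]
    exact (hum.pow_const _).mul (((hLm.const_mul _)).add (hSm.mul hum))
  have hφm : Measurable φ := by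
    rw [hφ]
    exact ((hsm.neg).max measurable_const).mul (hum.pow_const _)
  have hφ0 : ∀ x, 0 ≤ φ x := fun x =>
    mul_nonneg (le_max_right _ _) (Real.rpow_nonneg (hu x).le _)
  -- pointwise lower bound
  have hpt : ∀ x, c * (Lu x / u x) - S₀ x ≤ φ x := by
    intro x
    have hux := hu x
    have e1 : u x ^ (-(n + 2) / (n - 2)) * u x ^ (4 / (n - 2)) = (u x)⁻¹ := by
      rw [← Real.rpow_add hux]
      have : -(n + 2) / (n - 2) + 4 / (n - 2) = -1 := by
        field_simp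
        ring
      rw [this, Real.rpow_neg_one]
    have e2 : -(s x) * u x ^ (4 / (n - 2)) = c * (Lu x / u x) - S₀ x := by
      simp only [hs]
      have : -(u x ^ (-(n + 2) / (n - 2)) * (-c * Lu x + S₀ x * u x)) * u x ^ (4 / (n - 2))
          = -((u x ^ (-(n + 2) / (n - 2)) * u x ^ (4 / (n - 2))) * (-c * Lu x + S₀ x * u x)) := by
        ring
      rw [this, e1]
      field_simp
      ring
    rw [← e2]
    exact mul_le_mul_of_nonneg_right (le_max_left _ _) (Real.rpow_nonneg hux.le _)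
  -- integral lower bound
  have hint : Integrable (fun x => c * (Lu x / u x) - S₀ x) μ := (hL.const_mul c).sub hS
  have h1 : ENNReal.ofReal (-∫ x, S₀ x ∂μ) ≤ ∫⁻ x, ENNReal.ofReal (φ x) ∂μ := by
    have e : ∫ x, (c * (Lu x / u x) - S₀ x) ∂μ = c * ∫ x, Lu x / u x ∂μ - ∫ x, S₀ x ∂μ := by
      rw [integral_sub (hL.const_mul c) hS, integral_const_mul]
    have h2 : -∫ x, S₀ x ∂μ ≤ ∫ x, (c * (Lu x / u x) - S₀ x) ∂μ := by
      rw [e]
      have := mul_nonneg hc0 hibp
      linarith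
    calc ENNReal.ofReal (-∫ x, S₀ x ∂μ)
        ≤ ENNReal.ofReal (∫ x, (c * (Lu x / u x) - S₀ x) ∂μ) := ENNReal.ofReal_le_ofReal h2
      _ ≤ ∫⁻ x, ENNReal.ofReal (c * (Lu x / u x) - S₀ x) ∂μ := by
          have hpos : Integrable (fun x => max (c * (Lu x / u x) - S₀ x) 0) μ :=
            hint.sup (integrable_const 0)
          have hle : ∫ x, (c * (Lu x / u x) - S₀ x) ∂μ
              ≤ ∫ x, max (c * (Lu x / u x) - S₀ x) 0 ∂μ :=
            integral_mono hint hpos (fun x => le_max_left _ _)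
          refine (ENNReal.ofReal_le_ofReal hle).trans ?_
          rw [ofReal_integral_eq_lintegral_ofReal hpos
            (Filter.Eventually.of_forall (fun x => le_max_right _ _))]
          refine le_of_eq (lintegral_congr (fun x => ?_))
          rcases le_total (c * (Lu x / u x) - S₀ x) 0 with h | h
          · rw [max_eq_right h, ENNReal.ofReal_zero, ENNReal.ofReal_of_nonpos h]
          · rw [max_eq_left h]
      _ ≤ ∫⁻ x, ENNReal.ofReal (φ x) ∂μ :=
          lintegral_mono (fun x => ENNReal.ofReal_le_ofReal (hpt x))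
  -- Hoelder
  have hp : (n / 2).HolderConjugate (n / (n - 2)) := by
    rw [Real.holderConjugate_iff]
    refine ⟨by linarith, ?_⟩
    field_simp
    ring
  have hH := ENNReal.lintegral_mul_le_Lp_mul_Lq μ hp
    (f := fun x => ENNReal.ofReal (φ x)) (g := fun _ => (1 : ENNReal))
    (hφm.ennreal_ofReal).aemeasurable aemeasurable_const
  simp only [Pi.mul_apply, mul_one, ENNReal.one_rpow, lintegral_const, one_mul] at hH
  have h3 : ∀ x, ENNReal.ofReal (φ x) ^ (n / 2)
      = ENNReal.ofReal ((max (-(s x)) 0) ^ (n / 2) * u x ^ (2 * n / (n - 2))) := by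
    intro x
    rw [ENNReal.ofReal_rpow_of_nonneg (hφ0 x) (by linarith)]
    congr 1
    simp only [hφ]
    rw [Real.mul_rpow (le_max_right _ _) (Real.rpow_nonneg (hu x).le _),
      ← Real.rpow_mul (hu x).le]
    congr 2
    field_simp
    norm_num
  simp only [h3] at hH
  set I := ∫⁻ x, ENNReal.ofReal ((max (-(s x)) 0) ^ (n / 2) * u x ^ (2 * n / (n - 2))) ∂μ with hI
  have h4 : ENNReal.ofReal (-∫ x, S₀ x ∂μ) ≤ I ^ (1 / (n / 2)) * μ Set.univ ^ (1 / (n / (n - 2))) :=
    h1.trans hH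
  have h5 := ENNReal.rpow_le_rpow h4 (by linarith : (0:ℝ) ≤ n / 2)
  rw [ENNReal.mul_rpow_of_nonneg _ _ (by linarith : (0:ℝ) ≤ n / 2), ← ENNReal.rpow_mul,
    ← ENNReal.rpow_mul] at h5
  have e1 : 1 / (n / 2) * (n / 2) = 1 := by field_simp
  have e2 : 1 / (n / (n - 2)) * (n / 2) = (n - 2) / 2 := by field_simp
  rw [e1, e2, ENNReal.rpow_one, mul_comm] at h5
  exact h5

end Vale.Agent.Results.P223.B_ConformalClass
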