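import Vale.Agent.Results.P223.A_ProductStability
import Vale.Agent.Results.P223.B_ConformalClass

/-!
# P223: the integral scalar-curvature functional on a conformal class, and on products

The conjunction of the two statements `B_ConformalClass` and `A_ProductStability`, each with its
own quantifiers.

1. `(X, μ)` is a finite measure space, `n > 2` is real, `u > 0`, `S₀` and `Lu` are measurable real
   functions on `X` with `S₀` and `Lu / u` integrable and `∫ Lu / u dμ ≥ 0`.  With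
   `s = u^(-(n+2)/(n-2)) * (-(4(n-1)/(n-2)) * Lu + S₀ * u)` one has
   `(-∫ S₀ dμ)₊^(n/2) ≤ μ(X)^((n-2)/2) * ∫ (s⁻)^(n/2) * u^(2n/(n-2)) dμ`.
2. For s-finite measure spaces `(X, μ)`, `(Y, ν)`, measurable `s₁ : X → ℝ`, `s₂ : Y → ℝ` and real
   `p, q > 0`:
   `∫∫ ((s₁ x + s₂ y)⁻)^(p+q) ≥ (p+q)^(p+q)/(p^p q^q) · ∫ (s₁⁻)^p · ∫ (s₂⁻)^q`.

Here `t⁻ = max (-t) 0`.  The proofs are the theorems `result` of the two hand-ins named above.
-/

open MeasureTheory

namespace Vale.Agent.Results.P223.C_ConformalClassAndProducts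

universe v₁ v₂ v₃

theorem result :
    (∀ (X : Type v₁) [MeasurableSpace X] (μ : Measure X) [IsFiniteMeasure μ]
      (n : ℝ), 2 < n → ∀ (u S₀ Lu : X → ℝ),
      (∀ x, 0 < u x) → Measurable u → Measurable S₀ → Measurable Lu →
      Integrable S₀ μ → Integrable (fun x => Lu x / u x) μ →
      0 ≤ ∫ x, Lu x / u x ∂μ →
      ENNReal.ofReal (-∫ x, S₀ x ∂μ) ^ (n / 2)
        ≤ μ Set.univ ^ ((n - 2) / 2) *
          ∫⁻ x, ENNReal.ofReal
            ((max (-(u x ^ (-(n + 2) / (n - 2)) *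
              (-(4 * (n - 1) / (n - 2)) * Lu x + S₀ x * u x))) 0) ^ (n / 2)
              * u x ^ (2 * n / (n - 2))) ∂μ) ∧
    (∀ (X : Type v₂) (Y : Type v₃) [MeasurableSpace X] [MeasurableSpace Y]
      (μ : Measure X) (ν : Measure Y) [SFinite μ] [SFinite ν]
      (s₁ : X → ℝ) (s₂ : Y → ℝ), Measurable s₁ → Measurable s₂ →
      ∀ (p q : ℝ), 0 < p → 0 < q →
      ENNReal.ofReal ((p + q) ^ (p + q) / (p ^ p * q ^ q)) *
          ((∫⁻ x, ENNReal.ofReal ((max (-(s₁ x)) 0) ^ p) ∂μ) *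
            (∫⁻ y, ENNReal.ofReal ((max (-(s₂ y)) 0) ^ q) ∂ν))
        ≤ ∫⁻ z, ENNReal.ofReal ((max (-(s₁ z.1 + s₂ z.2)) 0) ^ (p + q)) ∂(μ.prod ν)) :=
  ⟨fun _ _ μ _ n hn u S₀ Lu hu hum hSm hLm hS hL hibp =>
      Vale.Agent.Results.P223.B_ConformalClass.result μ n hn u S₀ Lu hu hum hSm hLm hS hL hibp,
    fun _ _ _ _ μ ν _ _ s₁ s₂ hs₁ hs₂ p q hp hq =>
      Vale.Agent.Results.P223.A_ProductStability.result μ ν s₁ s₂ hs₁ hs₂ p q hp hq⟩

end Vale.Agent.Results.P223.C_ConformalClassAndProducts
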